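import Mathlib

/-! Tag gadgets: an abstract analysis of the copies of the 4 × 4 pattern. -/

namespace Vale.Agent.P037

open Finset

/-- The data of a gadget system. -/
structure Sys (G S Z T : Type) where
  x1 : G → T
  x2 : G → T
  y1 : G → T
  y2 : G → T
  ty : S → Z → T
  M : S → Z → S → Z → Prop
  M_ty : ∀ s z s' z', M s z s' z' → ty s z = ty s' z'
  row_nest : ∀ s z s' z', ty s z = ty s' z' →
    (∀ u v, M s z u v → M s' z' u v) ∨ (∀ u v, M s' z' u v → M s z u v)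
  col_nest : ∀ s z s' z', ty s z = ty s' z' →
    (∀ u v, M u v s z → M u v s' z') ∨ (∀ u v, M u v s' z' → M u v s z)

abbrev Elt (G S Z : Type) := ((G × Bool) ⊕ S) × Z

variable {G S Z T : Type}

namespace Sys

variable (P : Sys G S Z T)

def adj : Elt G S Z → Elt G S Z → Prop
  | (.inl (e, j), _), (.inl (e', j'), _) => e = e' ∧ ¬ (j = true ∧ j' = true)
  | (.inl (e, j), _), (.inr s, z) => P.ty s z = P.y2 e ∨ (j = false ∧ P.ty s z = P.y1 e)
  | (.inr s, z), (.inl (e, j), _) => P.ty s z = P.x1 e ∨ (j = false ∧ P.ty s z = P.x2 e)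
  | (.inr s, z), (.inr s', z') => P.M s z s' z'

@[simp] lemma adj_tt (e e' : G) (j j' : Bool) (z z' : Z) :
    P.adj (.inl (e, j), z) (.inl (e', j'), z') ↔ e = e' ∧ ¬ (j = true ∧ j' = true) := Iff.rfl
@[simp] lemma adj_tc (e : G) (j : Bool) (s : S) (z z' : Z) :
    P.adj (.inl (e, j), z') (.inr s, z) ↔
      P.ty s z = P.y2 e ∨ (j = false ∧ P.ty s z = P.y1 e) := Iff.rfl
@[simp] lemma adj_ct (e : G) (j : Bool) (s : S) (z z' : Z) :
    P.adj (.inr s, z) (.inl (e, j), z') ↔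
      P.ty s z = P.x1 e ∨ (j = false ∧ P.ty s z = P.x2 e) := Iff.rfl
@[simp] lemma adj_cc (s s' : S) (z z' : Z) :
    P.adj (.inr s, z) (.inr s', z') ↔ P.M s z s' z' := Iff.rfl

def cls : Elt G S Z → (G × Bool) ⊕ T
  | (.inl g, _) => .inl g
  | (.inr s, z) => .inr (P.ty s z)

@[simp] lemma cls_t (g : G × Bool) (z : Z) : P.cls (.inl g, z) = .inl g := rfl
@[simp] lemma cls_c (s : S) (z : Z) : P.cls (.inr s, z) = .inr (P.ty s z) := rfl

lemma rowNest (r r' : Elt G S Z) (h : P.cls r = P.cls r') :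
    (∀ c, P.adj r c → P.adj r' c) ∨ (∀ c, P.adj r' c → P.adj r c) := by
  rcases r with ⟨⟨e, j⟩ | s, z⟩ <;> rcases r' with ⟨⟨e', j'⟩ | s', z'⟩ <;>
    simp only [cls_t, cls_c, Sum.inl.injEq, Sum.inr.injEq, Prod.mk.injEq, reduceCtorEq] at h
  · obtain ⟨rfl, rfl⟩ := h
    left
    rintro ⟨⟨e', j'⟩ | s', w⟩ hc <;> simpa using hc
  · rcases P.row_nest s z s' z' h with h1 | h1
    · left
      rintro ⟨⟨e', j'⟩ | u, w⟩ hc
      · simpa [← h] using hc
      · exact h1 _ _ hc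
    · right
      rintro ⟨⟨e', j'⟩ | u, w⟩ hc
      · simpa [h] using hc
      · exact h1 _ _ hc

lemma colNest (c c' : Elt G S Z) (h : P.cls c = P.cls c') :
    (∀ r, P.adj r c → P.adj r c') ∨ (∀ r, P.adj r c' → P.adj r c) := by
  rcases c with ⟨⟨e, j⟩ | s, z⟩ <;> rcases c' with ⟨⟨e', j'⟩ | s', z'⟩ <;>
    simp only [cls_t, cls_c, Sum.inl.injEq, Sum.inr.injEq, Prod.mk.injEq, reduceCtorEq] at h
  · obtain ⟨rfl, rfl⟩ := h
    left
    rintro ⟨⟨e', j'⟩ | s', w⟩ hc <;> simpa using hc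
  · rcases P.col_nest s z s' z' h with h1 | h1
    · left
      rintro ⟨⟨e', j'⟩ | u, w⟩ hc
      · simpa [← h] using hc
      · exact h1 _ _ hc
    · right
      rintro ⟨⟨e', j'⟩ | u, w⟩ hc
      · simpa [h] using hc
      · exact h1 _ _ hc

end Sys

/-- The pattern, for a relation. -/
structure IsPat {E : Type} (a : E → E → Prop) (r0 r1 r2 r3 c0 c1 c2 c3 : E) : Prop where
  h00 : a r0 c0
  h01 : a r0 c1
  h02 : a r0 c2
  h03 : a r0 c3
  h10 : a r1 c0
  h11 : ¬ a r1 c1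
  h12 : ¬ a r1 c2
  h13 : a r1 c3
  h20 : a r2 c0
  h21 : a r2 c1
  h22 : ¬ a r2 c2
  h23 : ¬ a r2 c3
  h30 : a r3 c0
  h31 : ¬ a r3 c1
  h32 : a r3 c2
  h33 : ¬ a r3 c3

def isCore : Elt G S Z → Prop
  | (.inl _, _) => False
  | (.inr _, _) => True

@[simp] lemma isCore_t (g : G × Bool) (z : Z) : isCore (S := S) (.inl g, z) ↔ False := Iff.rfl
@[simp] lemma isCore_c (s : S) (z : Z) : isCore (G := G) (.inr s, z) ↔ True := Iff.rfl

theorem Sys.copy_structure (P : Sys G S Z T) {r0 r1 r2 r3 c0 c1 c2 c3 : Elt G S Z}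
    (h : IsPat P.adj r0 r1 r2 r3 c0 c1 c2 c3)
    (hr01 : isCore r0 → isCore r1) (hr12 : isCore r1 → isCore r2) (hr23 : isCore r2 → isCore r3)
    (hc01 : isCore c0 → isCore c1) (hc12 : isCore c1 → isCore c2) (hc23 : isCore c2 → isCore c3) :
    ∃ e s1 z1 s2 z2 s3 z3 s4 z4, r2 = (.inr s1, z1) ∧ r3 = (.inr s2, z2) ∧ c2 = (.inr s3, z3) ∧
      c3 = (.inr s4, z4) ∧ P.ty s1 z1 = P.x1 e ∧ P.ty s2 z2 = P.x2 e ∧ P.ty s3 z3 = P.y1 e ∧
      P.ty s4 z4 = P.y2 e ∧ ¬ P.M s1 z1 s4 z4 ∧ P.M s2 z2 s3 z3 := by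
  obtain ⟨h00, h01, h02, h03, h10, h11, h12, h13, h20, h21, h22, h23, h30, h31, h32, h33⟩ := h
  have n12 : P.cls r1 ≠ P.cls r2 := fun h => by
    rcases P.rowNest _ _ h with h | h
    · exact h23 (h _ h13)
    · exact h11 (h _ h21)
  have n13 : P.cls r1 ≠ P.cls r3 := fun h => by
    rcases P.rowNest _ _ h with h | h
    · exact h33 (h _ h13)
    · exact h12 (h _ h32)
  have n23 : P.cls r2 ≠ P.cls r3 := fun h => by
    rcases P.rowNest _ _ h with h | h
    · exact h31 (h _ h21)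
    · exact h22 (h _ h32)
  have m12 : P.cls c1 ≠ P.cls c2 := fun h => by
    rcases P.colNest _ _ h with h | h
    · exact h22 (h _ h21)
    · exact h31 (h _ h32)
  have m13 : P.cls c1 ≠ P.cls c3 := fun h => by
    rcases P.colNest _ _ h with h | h
    · exact h23 (h _ h21)
    · exact h11 (h _ h13)
  have m23 : P.cls c2 ≠ P.cls c3 := fun h => by
    rcases P.colNest _ _ h with h | h
    · exact h33 (h _ h32)
    · exact h12 (h _ h13)
  have hM := P.M_ty
  rcases r0 with ⟨⟨e0, j0⟩ | s0, z0⟩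
  · rcases c0 with ⟨⟨f0, k0⟩ | t0, w0⟩
    · -- both tags
      rcases r1 with ⟨⟨e1, j1⟩ | s1, z1⟩
      · rcases r2 with ⟨⟨e2, j2⟩ | s2, z2⟩
        · exfalso
          rcases c1 with ⟨⟨f1, k1⟩ | t1, w1⟩ <;> rcases c3 with ⟨⟨f3, k3⟩ | t3, w3⟩ <;>
            simp only [Sys.adj_tt, Sys.adj_tc, Sys.cls_t] at * <;> grind
        · rcases r3 with ⟨⟨e3, j3⟩ | s3, z3⟩
          · simp at hr23
          · rcases c1 with ⟨⟨f1, k1⟩ | t1, w1⟩
            · rcases c2 with ⟨⟨f2, k2⟩ | t2, w2⟩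
              · exfalso
                simp only [Sys.adj_tt, Sys.adj_tc, Sys.adj_ct, Sys.cls_t, Sys.cls_c] at *
                grind
              · rcases c3 with ⟨⟨f3, k3⟩ | t3, w3⟩
                · simp at hc23
                · refine ⟨e0, s2, z2, s3, z3, t2, w2, t3, w3, rfl, rfl, rfl, rfl, ?_⟩
                  simp only [Sys.adj_tt, Sys.adj_tc, Sys.adj_ct, Sys.adj_cc, Sys.cls_t,
                    Sys.cls_c] at *
                  grind
            · rcases c2 with ⟨⟨f2, k2⟩ | t2, w2⟩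
              · simp at hc12
              · rcases c3 with ⟨⟨f3, k3⟩ | t3, w3⟩
                · simp at hc23
                · exfalso
                  simp only [Sys.adj_tt, Sys.adj_tc, Sys.adj_ct, Sys.adj_cc, Sys.cls_t,
                    Sys.cls_c] at *
                  grind
      · rcases r2 with ⟨⟨e2, j2⟩ | s2, z2⟩
        · simp at hr12
        · rcases r3 with ⟨⟨e3, j3⟩ | s3, z3⟩
          · simp at hr23
          · exfalso
            simp only [Sys.adj_ct, Sys.cls_c] at h10 h20 h30 n12 n13 n23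
            grind
    · rcases c1 with ⟨⟨f1, k1⟩ | t1, w1⟩
      · simp at hc01
      · rcases c2 with ⟨⟨f2, k2⟩ | t2, w2⟩
        · simp at hc12
        · rcases c3 with ⟨⟨f3, k3⟩ | t3, w3⟩
          · simp at hc23
          · exfalso
            simp only [Sys.adj_tc, Sys.cls_c] at h01 h02 h03 m12 m13 m23
            grind
  · rcases r1 with ⟨⟨e1, j1⟩ | s1, z1⟩
    · simp at hr01
    · rcases r2 with ⟨⟨e2, j2⟩ | s2, z2⟩
      · simp at hr12
      · rcases r3 with ⟨⟨e3, j3⟩ | s3, z3⟩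
        · simp at hr23
        · exfalso
          rcases c0 with ⟨⟨f0, k0⟩ | t0, w0⟩
          · simp only [Sys.adj_ct, Sys.cls_c] at h10 h20 h30 n12 n13 n23
            grind
          · simp only [Sys.adj_cc, Sys.cls_c] at h10 h20 n12
            exact n12 (by rw [hM _ _ _ _ h10, hM _ _ _ _ h20])

end Vale.Agent.P037
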