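import Mathlib

/-! Dyadic block arithmetic. -/

namespace Vale.Agent.P037

def lo (D z : ℕ) : ℕ := z / D * D + 1
def hi (D z : ℕ) : ℕ := (z / D + 1) * D

lemma lt_hi_iff {D : ℕ} (hD : 0 < D) (x z : ℕ) : x < hi D z ↔ x / D ≤ z / D := by
  unfold hi
  rw [← Nat.div_lt_iff_lt_mul hD]
  omega

lemma lo_le_iff {D : ℕ} (hD : 0 < D) (x z : ℕ) : lo D z ≤ x + 1 ↔ z / D ≤ x / D := by
  unfold lo
  rw [Nat.le_div_iff_mul_le hD]
  omega

lemma lt_hi {D : ℕ} (hD : 0 < D) (z : ℕ) : z < hi D z := (lt_hi_iff hD z z).2 le_rfl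
lemma lo_le {D : ℕ} (hD : 0 < D) (z : ℕ) : lo D z ≤ z + 1 := (lo_le_iff hD z z).2 le_rfl

lemma div_two_mul (D z : ℕ) : z / (2 * D) = z / D / 2 := by
  rw [Nat.div_div_eq_div_mul, mul_comm]

lemma hi_le_hi (D z : ℕ) : hi D z ≤ hi (2 * D) z := by
  unfold hi
  rw [div_two_mul, ← mul_assoc]
  exact Nat.mul_le_mul_right _ (by omega)

lemma lo_le_lo (D z : ℕ) : lo (2 * D) z ≤ lo D z := by
  unfold lo
  rw [div_two_mul, ← mul_assoc]
  have : z / D / 2 * 2 * D ≤ z / D * D := Nat.mul_le_mul_right _ (by omega)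
  omega

lemma lo_le_hi {D : ℕ} (hD : 0 < D) (z : ℕ) : lo D z ≤ hi D z := by
  unfold lo hi
  rw [add_mul]
  omega

lemma lo_le_hi_iff {D : ℕ} (hD : 0 < D) (x z : ℕ) : lo D x ≤ hi D z ↔ x / D ≤ z / D := by
  unfold lo
  rw [Nat.add_one_le_iff, lt_hi_iff hD, Nat.mul_div_cancel _ hD]

variable (L t : ℕ)

def blk (i : ℕ) : ℕ := if i ≤ L then t * 2 ^ (L - i) else t * 2 ^ (i - L - 1)
def tyN (i z : ℕ) : ℕ × ℕ := (i, z / blk L t i % 2)
def cmp (i z z' : ℕ) : Prop :=
  if i ≤ L then z / blk L t i ≤ z' / blk L t i else z / blk L t i < z' / blk L t i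
def rowPrim (i z : ℕ) : ℕ := if i ≤ L then hi (blk L t i) z else lo (blk L t i) z
def colPrim (i z : ℕ) : ℕ := if i ≤ L then lo (blk L t i) z else hi (blk L t i) z

variable {L t}

lemma blk_pos (ht : 0 < t) (i : ℕ) : 0 < blk L t i := by
  unfold blk
  split_ifs <;> positivity

lemma blk_down {i : ℕ} (h : i < L) : blk L t i = 2 * blk L t (i + 1) := by
  unfold blk
  rw [if_pos h.le, if_pos (Nat.succ_le_of_lt h), show L - i = (L - (i + 1)) + 1 by omega, pow_succ]
  ring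

lemma blk_up {i : ℕ} (h : L < i) : blk L t (i + 1) = 2 * blk L t i := by
  unfold blk
  rw [if_neg (by omega), if_neg (by omega), show i + 1 - L - 1 = (i - L - 1) + 1 by omega, pow_succ]
  ring

lemma blk_L : blk L t L = t := by simp [blk]
lemma blk_L1 : blk L t (L + 1) = t := by simp [blk]
lemma blk_zero : blk L t 0 = t * 2 ^ L := by simp [blk]
lemma blk_last : blk L t (2 * L + 1) = t * 2 ^ L := by
  unfold blk
  rw [if_neg (by omega), show 2 * L + 1 - L - 1 = L by omega]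

lemma blk_dvd {i : ℕ} (h : i < 2 * L + 2) : blk L t i ∣ t * 2 ^ L := by
  unfold blk
  split_ifs
  · exact Nat.mul_dvd_mul_left _ (pow_dvd_pow _ (by omega))
  · exact Nat.mul_dvd_mul_left _ (pow_dvd_pow _ (by omega))

lemma rowPrim_step (ht : 0 < t) (i z : ℕ) : rowPrim L t (i + 1) z ≤ rowPrim L t i z := by
  unfold rowPrim
  rcases lt_trichotomy i L with h | rfl | h
  · rw [if_pos h.le, if_pos (Nat.succ_le_of_lt h), blk_down h]
    exact hi_le_hi _ _
  · rw [if_pos le_rfl, if_neg (by omega), blk_L, blk_L1]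
    exact lo_le_hi ht _
  · rw [if_neg (by omega), if_neg (by omega), blk_up h]
    exact lo_le_lo _ _

lemma colPrim_step (ht : 0 < t) (i z : ℕ) : colPrim L t i z ≤ colPrim L t (i + 1) z := by
  unfold colPrim
  rcases lt_trichotomy i L with h | rfl | h
  · rw [if_pos h.le, if_pos (Nat.succ_le_of_lt h), blk_down h]
    exact lo_le_lo _ _
  · rw [if_pos le_rfl, if_neg (by omega), blk_L, blk_L1]
    exact lo_le_hi ht _
  · rw [if_neg (by omega), if_neg (by omega), blk_up h]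
    exact hi_le_hi _ _

lemma one_le_lo (D z : ℕ) : 1 ≤ lo D z := by unfold lo; omega

lemma one_le_rowPrim (ht : 0 < t) (i z : ℕ) : 1 ≤ rowPrim L t i z := by
  unfold rowPrim
  split_ifs
  · exact (one_le_lo _ _).trans (lo_le_hi (blk_pos ht _) _)
  · exact one_le_lo _ _

lemma one_le_colPrim (ht : 0 < t) (i z : ℕ) : 1 ≤ colPrim L t i z := by
  unfold colPrim
  split_ifs
  · exact one_le_lo _ _
  · exact (one_le_lo _ _).trans (lo_le_hi (blk_pos ht _) _)

lemma rowPrim_last {z : ℕ} (hz : z < t * 2 ^ L) : rowPrim L t (2 * L + 1) z = 1 := by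
  unfold rowPrim
  rw [if_neg (by omega), blk_last, lo, Nat.div_eq_of_lt hz]
  simp

lemma colPrim_zero {z : ℕ} (hz : z < t * 2 ^ L) : colPrim L t 0 z = 1 := by
  unfold colPrim
  rw [if_pos (by omega), blk_zero, lo, Nat.div_eq_of_lt hz]
  simp

lemma colPrim_last {z : ℕ} (hz : z < t * 2 ^ L) : colPrim L t (2 * L + 1) z = t * 2 ^ L := by
  unfold colPrim
  rw [if_neg (by omega), blk_last, hi, Nat.div_eq_of_lt hz]
  simp

lemma hi_le_of_dvd {D W z : ℕ} (hD : 0 < D) (h : D ∣ W) (hz : z < W) : hi D z ≤ W := by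
  obtain ⟨q, rfl⟩ := h
  unfold hi
  rw [mul_comm D q]
  refine Nat.mul_le_mul_right _ ?_
  rw [Nat.add_one_le_iff, Nat.div_lt_iff_lt_mul hD, mul_comm q D]
  exact hz

lemma colPrim_le (ht : 0 < t) {i z : ℕ} (hi' : i < 2 * L + 2) (hz : z < t * 2 ^ L) :
    colPrim L t i z ≤ t * 2 ^ L := by
  unfold colPrim
  split_ifs
  · exact (lo_le (blk_pos ht _) _).trans hz
  · exact hi_le_of_dvd (blk_pos ht _) (blk_dvd hi') hz

lemma tyN_last {z : ℕ} (hz : z < t * 2 ^ L) : tyN L t (2 * L + 1) z = (2 * L + 1, 0) := by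
  unfold tyN
  rw [blk_last, Nat.div_eq_of_lt hz]

lemma tyN_zero {z : ℕ} (hz : z < t * 2 ^ L) : tyN L t 0 z = (0, 0) := by
  unfold tyN
  rw [blk_zero, Nat.div_eq_of_lt hz]

lemma cmp_zero {z z' : ℕ} (hz : z < t * 2 ^ L) : cmp L t 0 z z' := by
  unfold cmp
  rw [if_pos (by omega), blk_zero, Nat.div_eq_of_lt hz]
  exact Nat.zero_le _

lemma not_cmp_last {z z' : ℕ} (hz : z' < t * 2 ^ L) : ¬ cmp L t (2 * L + 1) z z' := by
  unfold cmp
  rw [if_neg (by omega), blk_last, Nat.div_eq_of_lt hz]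
  exact Nat.not_lt_zero _

/-- The implication carried by an edge gadget holds away from the turning stage. -/
lemma step_valid (ht : 0 < t) {i z1 z2 z3 z4 : ℕ} (hL : i ≠ L)
    (h1 : rowPrim L t (i + 1) z1 ≤ rowPrim L t i z2) (h2 : colPrim L t i z3 ≤ colPrim L t (i + 1) z4)
    (h3 : tyN L t i z2 = tyN L t i z3) (h4 : cmp L t i z2 z3)
    (h5 : tyN L t (i + 1) z1 = tyN L t (i + 1) z4) : cmp L t (i + 1) z1 z4 := by
  unfold rowPrim at h1
  unfold colPrim at h2
  unfold cmp at h4 ⊢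
  simp only [tyN, Prod.mk.injEq, true_and] at h3 h5
  rcases lt_or_gt_of_ne hL with h | h
  · simp only [if_pos h.le, if_pos (Nat.succ_le_of_lt h), blk_down (t := t) h] at *
    have hD := blk_pos (L := L) ht (i + 1)
    set D := blk L t (i + 1)
    have a1 : z1 / (2 * D) ≤ z2 / (2 * D) :=
      (lt_hi_iff (by omega) _ _).1 ((lt_hi hD z1).trans_le h1)
    have a2 : z3 / (2 * D) ≤ z4 / (2 * D) :=
      (lo_le_iff (by omega) _ _).1 (h2.trans (lo_le hD z4))
    simp only [div_two_mul] at *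
    omega
  · simp only [if_neg (not_le.2 h), if_neg (show ¬ i + 1 ≤ L by omega), blk_up (t := t) h] at *
    have hD := blk_pos (L := L) ht i
    set D := blk L t i
    have a1 : z1 / (2 * D) ≤ z2 / (2 * D) :=
      (lo_le_iff (by omega) _ _).1 (h1.trans (lo_le hD z2))
    have a2 : z3 / (2 * D) ≤ z4 / (2 * D) :=
      (lt_hi_iff (by omega) _ _).1 ((lt_hi hD z3).trans_le h2)
    simp only [div_two_mul] at *
    omega

/-- At the turning stage the implication fails only inside one finest block. -/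
lemma step_turn (ht : 0 < t) {z1 z2 z3 z4 : ℕ}
    (h1 : rowPrim L t (L + 1) z1 ≤ rowPrim L t L z2) (h2 : colPrim L t L z3 ≤ colPrim L t (L + 1) z4)
    (h4 : cmp L t L z2 z3) (h5 : ¬ cmp L t (L + 1) z1 z4) :
    z1 / t = z2 / t ∧ z3 / t = z2 / t ∧ z4 / t = z2 / t := by
  unfold rowPrim at h1
  unfold colPrim at h2
  unfold cmp at h4 h5
  simp only [if_pos (le_refl L), if_neg (show ¬ L + 1 ≤ L by omega), blk_L, blk_L1] at *
  rw [lo_le_hi_iff ht] at h1 h2
  omega

end Vale.Agent.P037
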