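import Vale.Agent.P037.Far
import Vale.Agent.P037.Arith

/-! The concrete gadget system. -/

namespace Vale.Agent.P037

open Finset

abbrev Gad (L : ℕ) := Fin (2 * L + 2) × Fin 2 × Fin 2 × Fin 3

def sys (L t : ℕ) : Sys (Gad L) (Fin (2 * L + 2)) (Fin (t * 2 ^ L)) (ℕ × ℕ) where
  x1 e := if e.2.2.2 = 0 then ((e.1 : ℕ) + 1, (e.2.2.1 : ℕ)) else (2 * L + 1, 0)
  x2 e := if e.2.2.2 = 1 then ((e.1 : ℕ) + 1, (e.2.2.1 : ℕ)) else ((e.1 : ℕ), (e.2.1 : ℕ))
  y1 e := if e.2.2.2 = 2 then ((e.1 : ℕ) + 1, (e.2.2.1 : ℕ)) else ((e.1 : ℕ), (e.2.1 : ℕ))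
  y2 e := if e.2.2.2 = 0 then ((e.1 : ℕ) + 1, (e.2.2.1 : ℕ)) else (2 * L + 1, 0)
  ty s z := tyN L t s z
  M s z s' z' := tyN L t s z = tyN L t s' z' ∧ cmp L t s z z'
  M_ty _ _ _ _ h := h.1
  row_nest := by
    intro s z s' z' h
    have hs : (s : ℕ) = s' := congrArg Prod.fst h
    rcases le_total (z' / blk L t s) (z / blk L t s) with h1 | h1
    · left
      rintro u v ⟨h2, h3⟩
      refine ⟨h.symm.trans h2, ?_⟩
      rw [← hs]
      unfold cmp at h3 ⊢
      split_ifs at h3 ⊢ <;> omega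
    · right
      rintro u v ⟨h2, h3⟩
      refine ⟨h.trans h2, ?_⟩
      rw [← hs] at h3
      unfold cmp at h3 ⊢
      split_ifs at h3 ⊢ <;> omega
  col_nest := by
    intro s z s' z' h
    have hs : (s : ℕ) = s' := congrArg Prod.fst h
    rcases le_total (z' / blk L t s) (z / blk L t s) with h1 | h1
    · right
      rintro u v ⟨h2, h3⟩
      have hu : (u : ℕ) = s := (congrArg Prod.fst h2).trans hs.symm
      refine ⟨h2.trans h.symm, ?_⟩
      rw [hu] at h3 ⊢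
      unfold cmp at h3 ⊢
      split_ifs at h3 ⊢ <;> omega
    · left
      rintro u v ⟨h2, h3⟩
      have hu : (u : ℕ) = s := congrArg Prod.fst h2
      refine ⟨h2.trans h, ?_⟩
      rw [hu] at h3 ⊢
      unfold cmp at h3 ⊢
      split_ifs at h3 ⊢ <;> omega

abbrev E (L t : ℕ) := Elt (Gad L) (Fin (2 * L + 2)) (Fin (t * 2 ^ L))

def rk (L t : ℕ) : E L t → ℕ ×ₗ ℕ
  | (.inl (_, j), _) => toLex (0, if j then 1 else 0)
  | (.inr s, z) => toLex (rowPrim L t s z, 2 * L + 2 - s)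

def ck (L t : ℕ) : E L t → ℕ ×ₗ ℕ
  | (.inl (_, j), _) => toLex (0, if j then 1 else 0)
  | (.inr s, z) => toLex (colPrim L t s z, s)

variable {L t : ℕ}

lemma rk_tags (ht : 0 < t) : TagsFirst (rk L t) := by
  constructor
  · intro e z z'
    simp [rk, Prod.Lex.toLex_lt_toLex]
  · intro e j z s z'
    have := one_le_rowPrim (L := L) ht s z'
    simp only [rk, Prod.Lex.toLex_lt_toLex]
    omega

lemma ck_tags (ht : 0 < t) : TagsFirst (ck L t) := by
  constructor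
  · intro e z z'
    simp [ck, Prod.Lex.toLex_lt_toLex]
  · intro e j z s z'
    have := one_le_colPrim (L := L) ht s z'
    simp only [ck, Prod.Lex.toLex_lt_toLex]
    omega

lemma isCore_of_le {G S Z K : Type} [LinearOrder K] {k : Elt G S Z → K} (hk : TagsFirst k)
    {r r' : Elt G S Z} (h : k r ≤ k r') : isCore r → isCore r' := by
  rcases r with ⟨⟨e, j⟩ | s, z⟩
  · simp
  · rcases r' with ⟨⟨e', j'⟩ | s', z'⟩
    · exact absurd (hk.2 e' j' z' s z) (not_lt.2 h)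
    · simp

lemma rk_lt {s s' : Fin (2 * L + 2)} {z z' : Fin (t * 2 ^ L)}
    (h : rowPrim L t s z ≤ rowPrim L t s' z') (hs : (s' : ℕ) < s) :
    rk L t (.inr s, z) < rk L t (.inr s', z') := by
  simp only [rk, Prod.Lex.toLex_lt_toLex]
  omega

lemma ck_lt {s s' : Fin (2 * L + 2)} {z z' : Fin (t * 2 ^ L)}
    (h : colPrim L t s z ≤ colPrim L t s' z') (hs : (s : ℕ) < s') :
    ck L t (.inr s, z) < ck L t (.inr s', z') := by
  simp only [ck, Prod.Lex.toLex_lt_toLex]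
  omega

lemma rk_le {s s' : Fin (2 * L + 2)} {z z' : Fin (t * 2 ^ L)}
    (h : rk L t (.inr s, z) ≤ rk L t (.inr s', z')) : rowPrim L t s z ≤ rowPrim L t s' z' := by
  simp only [rk, Prod.Lex.toLex_le_toLex] at h
  omega

lemma ck_le {s s' : Fin (2 * L + 2)} {z z' : Fin (t * 2 ^ L)}
    (h : ck L t (.inr s, z) ≤ ck L t (.inr s', z')) : colPrim L t s z ≤ colPrim L t s' z' := by
  simp only [ck, Prod.Lex.toLex_le_toLex] at h
  omega

/-- Every copy sits in one finest block of the two turning stages. -/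
theorem copy_special (ht : 0 < t) {r0 r1 r2 r3 c0 c1 c2 c3 : E L t}
    (h : IsPat (sys L t).adj r0 r1 r2 r3 c0 c1 c2 c3)
    (a1 : rk L t r0 ≤ rk L t r1) (a2 : rk L t r1 ≤ rk L t r2) (a3 : rk L t r2 ≤ rk L t r3)
    (b1 : ck L t c0 ≤ ck L t c1) (b2 : ck L t c1 ≤ ck L t c2) (b3 : ck L t c2 ≤ ck L t c3) :
    r2.1 = .inr ⟨L + 1, by omega⟩ ∧ c2.1 = .inr ⟨L, by omega⟩ ∧ c3.1 = .inr ⟨L + 1, by omega⟩ ∧
      (r2.2 : ℕ) / t = r3.2 / t ∧ (c2.2 : ℕ) / t = r3.2 / t ∧ (c3.2 : ℕ) / t = r3.2 / t := by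
  obtain ⟨⟨i, a, b, k⟩, s1, z1, s2, z2, s3, z3, s4, z4, rfl, rfl, rfl, rfl, t1, t2, t3, t4, m14,
      m23⟩ :=
    (sys L t).copy_structure h (isCore_of_le (rk_tags ht) a1) (isCore_of_le (rk_tags ht) a2)
      (isCore_of_le (rk_tags ht) a3) (isCore_of_le (ck_tags ht) b1) (isCore_of_le (ck_tags ht) b2)
      (isCore_of_le (ck_tags ht) b3)
  have a3' := rk_le a3
  have b3' := ck_le b3
  obtain ⟨m1, m2⟩ := m23
  change tyN L t s1 z1 = _ at t1
  change tyN L t s2 z2 = _ at t2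
  change tyN L t s3 z3 = _ at t3
  change tyN L t s4 z4 = _ at t4
  have hk : k = 0 := by
    by_contra hk
    rw [t2, t3] at m1
    fin_cases k
    · exact hk rfl
    · simp [sys] at m1
    · simp [sys] at m1
  subst hk
  simp only [sys, if_true, Fin.isValue, zero_ne_one, if_false, Fin.reduceEq] at t1 t2 t3 t4 m14
  have e1 : (s1 : ℕ) = i + 1 := congrArg Prod.fst t1
  have e2 : (s2 : ℕ) = i := congrArg Prod.fst t2
  have e3 : (s3 : ℕ) = i := congrArg Prod.fst t3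
  have e4 : (s4 : ℕ) = i + 1 := congrArg Prod.fst t4
  have m14' : ¬ cmp L t s1 z1 z4 := fun hc => m14 ⟨t1.trans t4.symm, hc⟩
  have t14 := t1.trans t4.symm
  rw [e1, e2] at a3'
  rw [e3, e4] at b3'
  rw [e2, e3] at m1
  rw [e2] at m2
  rw [e1] at m14'
  rw [e1, e4] at t14
  by_cases hL : (i : ℕ) = L
  · rw [hL] at a3' b3' m2 m14'
    obtain ⟨q1, q2, q3⟩ := step_turn ht a3' b3' m2 m14'
    refine ⟨?_, ?_, ?_, q1, q2, q3⟩
    · exact congrArg Sum.inr (Fin.ext (by simp only; omega))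
    · exact congrArg Sum.inr (Fin.ext (by simp only; omega))
    · exact congrArg Sum.inr (Fin.ext (by simp only; omega))
  · exact absurd (step_valid ht hL a3' b3' m1 m2 t14) m14'

section Far

variable (ht : 0 < t) {b : E L t → E L t → Prop} (hfree : Free (rk L t) (ck L t) b)
  (h : 8 * (totalSet ((sys L t).dif b)).card < Fintype.card (Fin (t * 2 ^ L)) ^ 2)

include ht hfree h

lemma force (e : Gad L) (hx1 : (sys L t).x1 e = (2 * L + 1, 0))
    (hy2 : (sys L t).y2 e = (2 * L + 1, 0)) {s s' : Fin (2 * L + 2)} {z z' : Fin (t * 2 ^ L)}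
    (hs : (s : ℕ) < 2 * L + 1) (hs' : (s' : ℕ) < 2 * L + 1)
    (t2 : tyN L t s z = (sys L t).x2 e) (t3 : tyN L t s' z' = (sys L t).y1 e)
    (g2 : GoodR ((sys L t).dif b) (.inr s, z)) (g3 : GoodC ((sys L t).dif b) (.inr s', z')) :
    ¬ b (.inr s, z) (.inr s', z') := by
  intro hb
  let l : Fin (2 * L + 2) := ⟨2 * L + 1, by omega⟩
  obtain ⟨v, gv, d1, -⟩ := pickCol ((sys L t).dif b) h (.inr l) g2 g2
  obtain ⟨u, gu, d2, d3⟩ := pickRow ((sys L t).dif b) h (.inr l) g3 gv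
  have tu : tyN L t l u = (2 * L + 1, 0) := tyN_last u.2
  have tv : tyN L t l v = (2 * L + 1, 0) := tyN_last v.2
  have n1 : ¬ (sys L t).M s z l v := fun hm => by
    have := congrArg Prod.fst hm.1
    simp only [tyN, l] at this
    omega
  have n2 : ¬ (sys L t).M l u s' z' := fun hm => by
    have := congrArg Prod.fst hm.1
    simp only [tyN, l] at this
    omega
  have n3 : ¬ (sys L t).M l u l v := fun hm => not_cmp_last v.2 hm.2
  simp only [Sys.dif, not_not, Sys.adj_cc] at d1 d2 d3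
  refine n3 (d3.2 ?_)
  refine (sys L t).gadget hfree (rk_tags ht) (ck_tags ht) h e ?_ ?_ (tu.trans hx1.symm) t2 t3
    (tv.trans hy2.symm) gu g2 g3 gv (rk_lt ?_ hs) (ck_lt ?_ hs') (fun hh => n2 (d2.2 hh))
    (fun hh => n1 (d1.2 hh)) hb
  · rw [hx1, ← t2]
    intro hh
    have := congrArg Prod.fst hh
    simp only [tyN] at this
    omega
  · rw [hy2, ← t3]
    intro hh
    have := congrArg Prod.fst hh
    simp only [tyN] at this
    omega
  · change rowPrim L t (2 * L + 1) u ≤ _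
    rw [rowPrim_last u.2]
    exact one_le_rowPrim ht _ _
  · change _ ≤ colPrim L t (2 * L + 1) v
    rw [colPrim_last v.2]
    exact colPrim_le ht s'.2 z'.2

lemma edge {s s' : Fin (2 * L + 2)} (hss : (s' : ℕ) = s + 1) (hs' : (s' : ℕ) < 2 * L + 1)
    {z1 z2 z3 z4 : Fin (t * 2 ^ L)}
    (t23 : tyN L t s z2 = tyN L t s z3) (t14 : tyN L t s' z1 = tyN L t s' z4)
    (g1 : GoodR ((sys L t).dif b) (.inr s', z1)) (g2 : GoodR ((sys L t).dif b) (.inr s, z2))
    (g3 : GoodC ((sys L t).dif b) (.inr s, z3)) (g4 : GoodC ((sys L t).dif b) (.inr s', z4))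
    (o1 : rowPrim L t s' z1 ≤ rowPrim L t s z2) (o2 : colPrim L t s z3 ≤ colPrim L t s' z4)
    (hb : b (.inr s, z2) (.inr s, z3)) : b (.inr s', z1) (.inr s', z4) := by
  let a : Fin 2 := ⟨z2 / blk L t s % 2, Nat.mod_lt _ (by norm_num)⟩
  let c : Fin 2 := ⟨z1 / blk L t s' % 2, Nat.mod_lt _ (by norm_num)⟩
  have ta : tyN L t s z2 = ((s : ℕ), (a : ℕ)) := rfl
  have tc : tyN L t s' z1 = ((s : ℕ) + 1, (c : ℕ)) := by rw [← hss]; rfl
  have f1 : ¬ b (.inr s', z1) (.inr s, z3) :=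
    force ht hfree h (s, a, c, 1) rfl rfl hs' (by omega) tc (t23.symm.trans ta) g1 g3
  have f2 : ¬ b (.inr s, z2) (.inr s', z4) :=
    force ht hfree h (s, a, c, 2) rfl rfl (by omega) hs' ta (t14.symm.trans tc) g2 g4
  refine (sys L t).gadget hfree (rk_tags ht) (ck_tags ht) h (s, a, c, 0) ?_ ?_ tc ta (t23.symm.trans ta)
    (t14.symm.trans tc) g1 g2 g3 g4 (rk_lt o1 (by omega)) (ck_lt o2 (by omega)) f1 f2 hb
  · simp [sys]
  · simp [sys]

theorem far_false (hL : 1 ≤ L) : False := by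
  obtain ⟨z, hz⟩ := pickLeaf ((sys L t).dif b) h
  have key : ∀ i : ℕ, ∀ hi : i + 1 < 2 * L + 1,
      b (.inr ⟨i + 1, by omega⟩, z) (.inr ⟨i + 1, by omega⟩, z) := by
    intro i
    induction i with
    | zero =>
      intro hi
      let s0 : Fin (2 * L + 2) := ⟨0, by omega⟩
      obtain ⟨v, gv, d1, -⟩ := pickCol ((sys L t).dif b) h (.inr s0) (hz (.inr s0)).1
        (hz (.inr s0)).1
      simp only [Sys.dif, not_not, Sys.adj_cc] at d1
      have t0 : tyN L t s0 z = tyN L t s0 v := (tyN_zero z.2).trans (tyN_zero v.2).symm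
      refine edge ht hfree h (s := s0) rfl hi t0 rfl (hz _).1 (hz _).1 gv (hz _).2
        (rowPrim_step ht 0 z) ?_ (d1.1 ⟨t0, cmp_zero z.2⟩)
      change colPrim L t 0 v ≤ _
      rw [colPrim_zero v.2]
      exact one_le_colPrim ht _ _
    | succ i ih =>
      intro hi
      exact edge ht hfree h (s := ⟨i + 1, by omega⟩) rfl hi rfl rfl (hz _).1 (hz _).1 (hz _).2
        (hz _).2 (rowPrim_step ht _ z) (colPrim_step ht _ z) (ih (by omega))
  have h1 := key (2 * L - 1) (by omega)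
  let s : Fin (2 * L + 2) := ⟨2 * L - 1 + 1, by omega⟩
  let a : Fin 2 := ⟨z / blk L t s % 2, Nat.mod_lt _ (by norm_num)⟩
  have hs : (s : ℕ) + 1 = 2 * L + 1 := by simp only [s]; omega
  refine force ht hfree h (s, a, 0, 0) ?_ ?_ (s := s) (s' := s) (by omega) (by omega) rfl rfl
    (hz _).1 (hz _).2 h1
  · simp [sys, hs]
  · simp [sys, hs]

end Far

end Vale.Agent.P037
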