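import Mathlib

namespace Vale.Agent.P037

/-- `N_H(A)`: the number of ordered copies of the binary `k × k` matrix `H` in the binary
`n × n` matrix `A`: pairs of strictly increasing index sequences `r`, `c` with
`A (r i) (c j) = H i j` for all `i, j` (zeros are matched as well as ones). -/
noncomputable def numCopies {k n : ℕ} (H : Matrix (Fin k) (Fin k) (Fin 2))
    (A : Matrix (Fin n) (Fin n) (Fin 2)) : ℕ :=
  Nat.card {p : (Fin k → Fin n) × (Fin k → Fin n) //
    StrictMono p.1 ∧ StrictMono p.2 ∧ ∀ i j, A (p.1 i) (p.2 j) = H i j}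

/-- The number of entries in which two binary `n × n` matrices differ. -/
noncomputable def numDiff {n : ℕ} (A B : Matrix (Fin n) (Fin n) (Fin 2)) : ℕ :=
  Nat.card {p : Fin n × Fin n // A p.1 p.2 ≠ B p.1 p.2}

/-- `dist_H(A)`: the least number of entries of `A` that must be changed to reach an `H`-free
matrix, divided by `n ^ 2`. -/
noncomputable def distFree {k n : ℕ} (H : Matrix (Fin k) (Fin k) (Fin 2))
    (A : Matrix (Fin n) (Fin n) (Fin 2)) : ℝ :=
  ((sInf {d : ℕ | ∃ B : Matrix (Fin n) (Fin n) (Fin 2), numCopies H B = 0 ∧ numDiff A B = d} : ℕ) : ℝ)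
    / (n : ℝ) ^ 2

/-- The fixed `4 × 4` pattern. -/
def pattern : Matrix (Fin 4) (Fin 4) (Fin 2) :=
  !![1, 1, 1, 1;
     1, 0, 0, 1;
     1, 1, 0, 0;
     1, 0, 1, 0]

end Vale.Agent.P037
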