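import Vale.Agent.P037.Abstract

/-! Robustness of the tag gadgets: good rows and good columns. -/

namespace Vale.Agent.P037

open Finset

section Counting

variable {A Z : Type} [Fintype A] [Fintype Z]

lemma exists_notMem_of_card_lt (s : A) (F : Finset (A × Z)) (h : F.card < Fintype.card Z) :
    ∃ z, (s, z) ∉ F := by
  classical
  by_contra hc
  push_neg at hc
  have : (Finset.univ : Finset Z).card ≤ F.card :=
    Finset.card_le_card_of_injOn (fun z => (s, z)) (fun z _ => hc z)
      (fun a _ b _ hab => by simpa using hab)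
  rw [Finset.card_univ] at this
  omega

variable (d : A × Z → A × Z → Prop)

open Classical in
noncomputable def rowSet (r : A × Z) : Finset (A × Z) := univ.filter fun c => d r c
open Classical in
noncomputable def colSet (c : A × Z) : Finset (A × Z) := univ.filter fun r => d r c
open Classical in
noncomputable def totalSet : Finset ((A × Z) × (A × Z)) := univ.filter fun p => d p.1 p.2

def GoodR (r : A × Z) : Prop := 4 * (rowSet d r).card < Fintype.card Z
def GoodC (c : A × Z) : Prop := 4 * (colSet d c).card < Fintype.card Z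

open Classical in
noncomputable def badR : Finset (A × Z) := univ.filter fun r => ¬ GoodR d r
open Classical in
noncomputable def badC : Finset (A × Z) := univ.filter fun c => ¬ GoodC d c

lemma total_eq_sum_row : (totalSet d).card = ∑ r, (rowSet d r).card := by
  classical
  unfold totalSet rowSet
  rw [Finset.card_filter, Fintype.sum_prod_type]
  refine Finset.sum_congr rfl fun r _ => ?_
  rw [Finset.card_filter]

lemma total_eq_sum_col : (totalSet d).card = ∑ c, (colSet d c).card := by
  classical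
  unfold totalSet colSet
  rw [Finset.card_filter, Fintype.sum_prod_type_right]
  refine Finset.sum_congr rfl fun r _ => ?_
  rw [Finset.card_filter]

lemma badR_small (h : 8 * (totalSet d).card < Fintype.card Z ^ 2) :
    2 * (badR d).card < Fintype.card Z := by
  classical
  have h1 : (badR d).card * Fintype.card Z ≤ 4 * (totalSet d).card := by
    rw [total_eq_sum_row, Finset.mul_sum]
    calc (badR d).card * Fintype.card Z = ∑ _r ∈ badR d, Fintype.card Z := by simp
      _ ≤ ∑ r ∈ badR d, 4 * (rowSet d r).card := by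
        refine Finset.sum_le_sum fun r hr => ?_
        simpa [badR, GoodR] using hr
      _ ≤ _ := Finset.sum_le_sum_of_subset (Finset.subset_univ _)
  by_contra hc
  push_neg at hc
  nlinarith

lemma badC_small (h : 8 * (totalSet d).card < Fintype.card Z ^ 2) :
    2 * (badC d).card < Fintype.card Z := by
  classical
  have h1 : (badC d).card * Fintype.card Z ≤ 4 * (totalSet d).card := by
    rw [total_eq_sum_col, Finset.mul_sum]
    calc (badC d).card * Fintype.card Z = ∑ _r ∈ badC d, Fintype.card Z := by simp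
      _ ≤ ∑ r ∈ badC d, 4 * (colSet d r).card := by
        refine Finset.sum_le_sum fun r hr => ?_
        simpa [badC, GoodC] using hr
      _ ≤ _ := Finset.sum_le_sum_of_subset (Finset.subset_univ _)
  by_contra hc
  push_neg at hc
  nlinarith

lemma pickCol (h : 8 * (totalSet d).card < Fintype.card Z ^ 2) (s : A) {r1 r2 : A × Z}
    (h1 : GoodR d r1) (h2 : GoodR d r2) :
    ∃ z, GoodC d (s, z) ∧ ¬ d r1 (s, z) ∧ ¬ d r2 (s, z) := by
  classical
  have hb := badC_small d h
  obtain ⟨z, hz⟩ := exists_notMem_of_card_lt s (badC d ∪ rowSet d r1 ∪ rowSet d r2) (by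
    have a1 := Finset.card_union_le (badC d ∪ rowSet d r1) (rowSet d r2)
    have a2 := Finset.card_union_le (badC d) (rowSet d r1)
    unfold GoodR at h1 h2
    omega)
  refine ⟨z, ?_⟩
  simpa [badC, rowSet, not_or] using hz

lemma pickRow (h : 8 * (totalSet d).card < Fintype.card Z ^ 2) (s : A) {c1 c2 : A × Z}
    (h1 : GoodC d c1) (h2 : GoodC d c2) :
    ∃ z, GoodR d (s, z) ∧ ¬ d (s, z) c1 ∧ ¬ d (s, z) c2 := by
  classical
  have hb := badR_small d h
  obtain ⟨z, hz⟩ := exists_notMem_of_card_lt s (badR d ∪ colSet d c1 ∪ colSet d c2) (by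
    have a1 := Finset.card_union_le (badR d ∪ colSet d c1) (colSet d c2)
    have a2 := Finset.card_union_le (badR d) (colSet d c1)
    unfold GoodC at h1 h2
    omega)
  refine ⟨z, ?_⟩
  simpa [badR, colSet, not_or] using hz

lemma pickRow4 (s : A) {c1 c2 c3 c4 : A × Z}
    (h1 : GoodC d c1) (h2 : GoodC d c2) (h3 : GoodC d c3) (h4 : GoodC d c4) :
    ∃ z, ¬ d (s, z) c1 ∧ ¬ d (s, z) c2 ∧ ¬ d (s, z) c3 ∧ ¬ d (s, z) c4 := by
  classical
  obtain ⟨z, hz⟩ := exists_notMem_of_card_lt s
    (colSet d c1 ∪ colSet d c2 ∪ colSet d c3 ∪ colSet d c4) (by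
    have a1 := Finset.card_union_le (colSet d c1 ∪ colSet d c2 ∪ colSet d c3) (colSet d c4)
    have a2 := Finset.card_union_le (colSet d c1 ∪ colSet d c2) (colSet d c3)
    have a3 := Finset.card_union_le (colSet d c1) (colSet d c2)
    unfold GoodC at h1 h2 h3 h4
    omega)
  refine ⟨z, ?_⟩
  simpa [colSet, not_or, and_assoc] using hz

lemma pickLeaf (h : 8 * (totalSet d).card < Fintype.card Z ^ 2) :
    ∃ z : Z, ∀ s : A, GoodR d (s, z) ∧ GoodC d (s, z) := by
  classical
  have hb := badR_small d h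
  have hc := badC_small d h
  have : ((badR d).image Prod.snd ∪ (badC d).image Prod.snd).card < (univ : Finset Z).card := by
    have a1 := Finset.card_union_le ((badR d).image Prod.snd) ((badC d).image Prod.snd)
    have a2 : ((badR d).image Prod.snd).card ≤ (badR d).card := Finset.card_image_le
    have a3 : ((badC d).image Prod.snd).card ≤ (badC d).card := Finset.card_image_le
    rw [Finset.card_univ]
    omega
  obtain ⟨z, -, hz⟩ := Finset.exists_mem_notMem_of_card_lt_card this
  refine ⟨z, fun s => ⟨?_, ?_⟩⟩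
  · by_contra hg
    exact hz (Finset.mem_union_left _ (Finset.mem_image.2 ⟨(s, z), by simpa [badR] using hg, rfl⟩))
  · by_contra hg
    exact hz (Finset.mem_union_right _ (Finset.mem_image.2 ⟨(s, z), by simpa [badC] using hg, rfl⟩))

end Counting

variable {G S Z T K : Type} [Fintype G] [Fintype S] [Fintype Z] [LinearOrder K]

/-- the disagreement relation -/
def Sys.dif (P : Sys G S Z T) (b : Elt G S Z → Elt G S Z → Prop) (r c : Elt G S Z) : Prop :=
  ¬ (P.adj r c ↔ b r c)

/-- no ordered copy with strictly increasing keys -/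
def Free {E : Type} (rk ck : E → K) (b : E → E → Prop) : Prop :=
  ∀ r0 r1 r2 r3 c0 c1 c2 c3, rk r0 < rk r1 → rk r1 < rk r2 → rk r2 < rk r3 →
    ck c0 < ck c1 → ck c1 < ck c2 → ck c2 < ck c3 → ¬ IsPat b r0 r1 r2 r3 c0 c1 c2 c3

/-- tags come first -/
def TagsFirst (k : Elt G S Z → K) : Prop :=
  (∀ e z z', k (.inl (e, false), z) < k (.inl (e, true), z')) ∧
  (∀ e j z s z', k (.inl (e, j), z) < k (.inr s, z'))

theorem Sys.gadget (P : Sys G S Z T) {b : Elt G S Z → Elt G S Z → Prop} {rk ck : Elt G S Z → K}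
    (hfree : Free rk ck b) (hr : TagsFirst rk) (hc : TagsFirst ck)
    (h : 8 * (totalSet (P.dif b)).card < Fintype.card Z ^ 2)
    (e : G) (hx : P.x1 e ≠ P.x2 e) (hy : P.y1 e ≠ P.y2 e)
    {s1 s2 s3 s4 : S} {z1 z2 z3 z4 : Z}
    (t1 : P.ty s1 z1 = P.x1 e) (t2 : P.ty s2 z2 = P.x2 e) (t3 : P.ty s3 z3 = P.y1 e)
    (t4 : P.ty s4 z4 = P.y2 e)
    (g1 : GoodR (P.dif b) (.inr s1, z1)) (g2 : GoodR (P.dif b) (.inr s2, z2))
    (g3 : GoodC (P.dif b) (.inr s3, z3)) (g4 : GoodC (P.dif b) (.inr s4, z4))
    (o1 : rk (.inr s1, z1) < rk (.inr s2, z2)) (o2 : ck (.inr s3, z3) < ck (.inr s4, z4))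
    (b13 : ¬ b (.inr s1, z1) (.inr s3, z3)) (b24 : ¬ b (.inr s2, z2) (.inr s4, z4))
    (b23 : b (.inr s2, z2) (.inr s3, z3)) : b (.inr s1, z1) (.inr s4, z4) := by
  by_contra b14
  obtain ⟨u0, gu0, a20, a30⟩ := pickCol (P.dif b) h (.inl (e, false)) g1 g2
  obtain ⟨u1, gu1, a21, a31⟩ := pickCol (P.dif b) h (.inl (e, true)) g1 g2
  obtain ⟨v0, a00, a01, a02, a03⟩ := pickRow4 (P.dif b) (.inl (e, false)) gu0 gu1 g3 g4
  obtain ⟨v1, a10, a11, a12, a13⟩ := pickRow4 (P.dif b) (.inl (e, true)) gu0 gu1 g3 g4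
  simp only [Sys.dif, not_not, Sys.adj_tt, Sys.adj_tc, Sys.adj_ct] at *
  refine hfree (.inl (e, false), v0) (.inl (e, true), v1) _ _ (.inl (e, false), u0)
    (.inl (e, true), u1) _ _ (hr.1 _ _ _) (hr.2 _ _ _ _ _) o1 (hc.1 _ _ _) (hc.2 _ _ _ _ _) o2 ?_
  constructor <;> grind

end Vale.Agent.P037
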