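import Vale.Agent.P037.Concrete
import Vale.Agent.P037.Defs

/-! Transport to matrices indexed by `Fin n`. -/

namespace Vale.Agent.P037

open Finset

lemma exists_enum {X K : Type} [Fintype X] [LinearOrder K] (key : X → K) {n : ℕ}
    (hn : Fintype.card X = n) : ∃ e : Fin n ≃ X, Monotone (key ∘ e) := by
  let e0 : Fin n ≃ X := (Fintype.equivFinOfCardEq hn).symm
  exact ⟨(Tuple.sort (key ∘ e0)).trans e0, Tuple.monotone_sort (key ∘ e0)⟩

lemma symm_lt {X K : Type} [LinearOrder K] {key : X → K} {n : ℕ} {e : Fin n ≃ X}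
    (he : Monotone (key ∘ e)) {x y : X} (h : key x < key y) : e.symm x < e.symm y := by
  by_contra hc
  have := he (not_lt.1 hc)
  simp only [Function.comp, Equiv.apply_symm_apply] at this
  exact absurd h (not_lt.2 this)

lemma mem_totalSet {A Z : Type} [Fintype A] [Fintype Z] (d : A × Z → A × Z → Prop)
    {p : (A × Z) × (A × Z)} (h : p ∈ totalSet d) : d p.1 p.2 := by
  classical
  unfold totalSet at h
  exact (Finset.mem_filter.1 h).2

lemma card_E (L t : ℕ) : Fintype.card (E L t) = 50 * (L + 1) * t * 2 ^ L := by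
  simp only [E, Elt, Gad, Fintype.card_prod, Fintype.card_sum, Fintype.card_fin, Fintype.card_bool]
  ring

lemma fin2_eq_zero (x : Fin 2) : x = 0 ↔ ¬ x = 1 := by
  revert x
  decide

lemma isPat_iff {n : ℕ} (B : Matrix (Fin n) (Fin n) (Fin 2)) (r c : Fin 4 → Fin n) :
    (∀ i j, B (r i) (c j) = pattern i j) ↔
      IsPat (fun i j => B i j = 1) (r 0) (r 1) (r 2) (r 3) (c 0) (c 1) (c 2) (c 3) := by
  constructor
  · intro h
    constructor <;> rw [h] <;> decide
  · rintro ⟨h00, h01, h02, h03, h10, h11, h12, h13, h20, h21, h22, h23, h30, h31, h32, h33⟩ i j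
    rw [← fin2_eq_zero] at h11 h12 h22 h23 h31 h33
    fin_cases i <;> fin_cases j <;> assumption

lemma IsPat.map {X Y : Type} {a : X → X → Prop} {a' : Y → Y → Prop} (f g : X → Y)
    (h : ∀ x y, a x y ↔ a' (f x) (g y)) {r0 r1 r2 r3 c0 c1 c2 c3 : X}
    (p : IsPat a r0 r1 r2 r3 c0 c1 c2 c3) :
    IsPat a' (f r0) (f r1) (f r2) (f r3) (g c0) (g c1) (g c2) (g c3) := by
  obtain ⟨h00, h01, h02, h03, h10, h11, h12, h13, h20, h21, h22, h23, h30, h31, h32, h33⟩ := p
  constructor <;> rw [← h] <;> assumption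

theorem exists_matrix {L t : ℕ} (hL : 1 ≤ L) (ht : 0 < t) {n : ℕ}
    (hn : n = 50 * (L + 1) * t * 2 ^ L) :
    ∃ A : Matrix (Fin n) (Fin n) (Fin 2),
      (∀ B : Matrix (Fin n) (Fin n) (Fin 2), numCopies pattern B = 0 →
        (t * 2 ^ L) ^ 2 ≤ 8 * numDiff A B) ∧ numCopies pattern A ≤ n ^ 5 * t ^ 3 := by
  classical
  obtain ⟨er, her⟩ := exists_enum (rk L t) ((card_E L t).trans hn.symm)
  obtain ⟨ec, hec⟩ := exists_enum (ck L t) ((card_E L t).trans hn.symm)
  let A : Matrix (Fin n) (Fin n) (Fin 2) :=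
    fun i j => if (sys L t).adj (er i) (ec j) then 1 else 0
  have hA : ∀ i j, A i j = 1 ↔ (sys L t).adj (er i) (ec j) := by
    intro i j
    simp [A]
  refine ⟨A, fun B hB => ?_, ?_⟩
  · by_contra hc
    let b : E L t → E L t → Prop := fun r c => B (er.symm r) (ec.symm c) = 1
    refine far_false ht (b := b) ?_ ?_ hL
    · intro r0 r1 r2 r3 c0 c1 c2 c3 a1 a2 a3 b1 b2 b3 hp
      have hp' := hp.map (a' := fun i j => B i j = 1) er.symm ec.symm (fun _ _ => Iff.rfl)
      have : Nonempty {p : (Fin 4 → Fin n) × (Fin 4 → Fin n) //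
          StrictMono p.1 ∧ StrictMono p.2 ∧ ∀ i j, B (p.1 i) (p.2 j) = pattern i j} := by
        refine ⟨⟨(![er.symm r0, er.symm r1, er.symm r2, er.symm r3],
          ![ec.symm c0, ec.symm c1, ec.symm c2, ec.symm c3]), ?_, ?_, ?_⟩⟩
        · refine Fin.strictMono_iff_lt_succ.2 fun i => ?_
          fin_cases i
          · exact symm_lt her a1
          · exact symm_lt her a2
          · exact symm_lt her a3
        · refine Fin.strictMono_iff_lt_succ.2 fun i => ?_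
          fin_cases i
          · exact symm_lt hec b1
          · exact symm_lt hec b2
          · exact symm_lt hec b3
        · exact (isPat_iff B _ _).2 hp'
      exact (Nat.card_pos.ne') hB
    · have h1 : (totalSet ((sys L t).dif b)).card ≤ numDiff A B := by
        unfold numDiff
        rw [← Nat.card_eq_finsetCard]
        refine Nat.card_le_card_of_injective
          (fun p => ⟨(er.symm p.1.1, ec.symm p.1.2), ?_⟩) ?_
        · obtain ⟨p, hp0⟩ := p
          have hp : ¬ ((sys L t).adj p.1 p.2 ↔ b p.1 p.2) := mem_totalSet _ hp0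
          intro hh
          apply hp
          have := hA (er.symm p.1) (ec.symm p.2)
          simp only [Equiv.apply_symm_apply] at this
          rw [← this]
          simp only at hh
          rw [hh]
        · rintro ⟨⟨x, y⟩, hp⟩ ⟨⟨x', y'⟩, hp'⟩ hh
          simp only [Subtype.mk.injEq, Prod.mk.injEq, EmbeddingLike.apply_eq_iff_eq] at hh ⊢
          exact hh
      rw [Fintype.card_fin]
      omega
  · unfold numCopies
    have key : ∀ p : {p : (Fin 4 → Fin n) × (Fin 4 → Fin n) //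
          StrictMono p.1 ∧ StrictMono p.2 ∧ ∀ i j, A (p.1 i) (p.2 j) = pattern i j}, _ := fun p =>
      copy_special ht (((isPat_iff A _ _).1 p.2.2.2).map er ec hA)
        (her (p.2.1 (show (0 : Fin 4) < 1 by decide)).le)
        (her (p.2.1 (show (1 : Fin 4) < 2 by decide)).le)
        (her (p.2.1 (show (2 : Fin 4) < 3 by decide)).le)
        (hec (p.2.2.1 (show (0 : Fin 4) < 1 by decide)).le)
        (hec (p.2.2.1 (show (1 : Fin 4) < 2 by decide)).le)
        (hec (p.2.2.1 (show (2 : Fin 4) < 3 by decide)).le)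
    have hcard : Nat.card ((Fin n × Fin n × Fin n × Fin n × Fin n) × (Fin t × Fin t × Fin t)) =
        n ^ 5 * t ^ 3 := by
      simp only [Nat.card_prod, Nat.card_fin]
      ring
    rw [← hcard]
    refine Nat.card_le_card_of_injective
      (fun p => ((p.1.1 0, p.1.1 1, p.1.1 3, p.1.2 0, p.1.2 1),
        (⟨(er (p.1.1 2)).2 % t, Nat.mod_lt _ ht⟩, ⟨(ec (p.1.2 2)).2 % t, Nat.mod_lt _ ht⟩,
          ⟨(ec (p.1.2 3)).2 % t, Nat.mod_lt _ ht⟩))) ?_
    intro p q hpq
    obtain ⟨p1, p2, p3, p4, p5, p6⟩ := key p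
    obtain ⟨q1, q2, q3, q4, q5, q6⟩ := key q
    simp only [Prod.mk.injEq, Fin.mk.injEq] at hpq
    obtain ⟨⟨e1, e2, e3, e4, e5⟩, e6, e7, e8⟩ := hpq
    rw [← e3] at q4 q5 q6
    have aux : ∀ x y : E L t, x.1 = y.1 → (x.2 : ℕ) / t = y.2 / t → (x.2 : ℕ) % t = y.2 % t →
        x = y := by
      intro x y h1 h2 h3
      refine Prod.ext h1 (Fin.ext ?_)
      rw [← Nat.div_add_mod x.2 t, ← Nat.div_add_mod y.2 t, h2, h3]
    have f1 : p.1.1 2 = q.1.1 2 := er.injective (aux _ _ (p1.trans q1.symm) (p4.trans q4.symm) e6)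
    have f2 : p.1.2 2 = q.1.2 2 := ec.injective (aux _ _ (p2.trans q2.symm) (p5.trans q5.symm) e7)
    have f3 : p.1.2 3 = q.1.2 3 := ec.injective (aux _ _ (p3.trans q3.symm) (p6.trans q6.symm) e8)
    refine Subtype.ext (Prod.ext (funext fun i => ?_) (funext fun i => ?_))
    · fin_cases i <;> assumption
    · fin_cases i <;> assumption

lemma zero_free (n : ℕ) : numCopies pattern (0 : Matrix (Fin n) (Fin n) (Fin 2)) = 0 := by
  unfold numCopies
  have : IsEmpty {p : (Fin 4 → Fin n) × (Fin 4 → Fin n) //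
      StrictMono p.1 ∧ StrictMono p.2 ∧
        ∀ i j, (0 : Matrix (Fin n) (Fin n) (Fin 2)) (p.1 i) (p.2 j) = pattern i j} :=
    ⟨fun p => absurd (p.2.2.2 0 0) (by simp [pattern])⟩
  exact Nat.card_of_isEmpty

theorem exists_matrix_real {L t : ℕ} (hL : 1 ≤ L) (ht : 0 < t) {n : ℕ}
    (hn : n = 50 * (L + 1) * t * 2 ^ L) :
    ∃ A : Matrix (Fin n) (Fin n) (Fin 2),
      1 / (20000 * ((L : ℝ) + 1) ^ 2) ≤ distFree pattern A ∧
        (numCopies pattern A : ℝ) ≤ (n : ℝ) ^ 8 / 8 ^ L := by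
  obtain ⟨A, h1, h2⟩ := exists_matrix hL ht hn
  refine ⟨A, ?_, ?_⟩
  · unfold distFree
    obtain ⟨B, hB, hd⟩ := Nat.sInf_mem (s := {d : ℕ | ∃ B : Matrix (Fin n) (Fin n) (Fin 2),
      numCopies pattern B = 0 ∧ numDiff A B = d}) ⟨_, 0, zero_free n, rfl⟩
    rw [← hd]
    have h3 : ((t : ℝ) * 2 ^ L) ^ 2 ≤ 8 * numDiff A B := by exact_mod_cast h1 B hB
    have hn' : (n : ℝ) = 50 * (L + 1) * (t * 2 ^ L) := by rw [hn]; push_cast; ring
    have hW : (0 : ℝ) < t * 2 ^ L := by positivity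
    rw [hn', div_le_div_iff₀ (by positivity) (by positivity)]
    have : (0 : ℝ) ≤ ((L : ℝ) + 1) ^ 2 := by positivity
    nlinarith
  · rw [le_div_iff₀ (by positivity)]
    have h3 : t * 2 ^ L ≤ n := by
      rw [hn, mul_assoc]
      exact Nat.le_mul_of_pos_left _ (by positivity)
    have h4 : numCopies pattern A * 8 ^ L ≤ n ^ 8 := by
      calc numCopies pattern A * 8 ^ L ≤ n ^ 5 * t ^ 3 * 8 ^ L := Nat.mul_le_mul_right _ h2
        _ = n ^ 5 * (t * 2 ^ L) ^ 3 := by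
          rw [mul_pow, ← pow_mul, mul_comm L 3, pow_mul]; ring
        _ ≤ n ^ 5 * n ^ 3 := Nat.mul_le_mul_left _ (Nat.pow_le_pow_left h3 3)
        _ = n ^ 8 := by ring
    exact_mod_cast h4

theorem quantitative (ε : ℝ) (h0 : 0 < ε) (h1 : ε ≤ 1 / 100000) (n₀ : ℕ) :
    ∃ n : ℕ, n₀ ≤ n ∧ ∃ A : Matrix (Fin n) (Fin n) (Fin 2), ε ≤ distFree pattern A ∧
      (numCopies pattern A : ℝ) ≤ (2 : ℝ) ^ (-(1 / (142 * √ε))) * (n : ℝ) ^ 8 := by
  have hs : 0 < √ε := Real.sqrt_pos.2 h0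
  have hs2 : √ε ^ 2 = ε := Real.sq_sqrt h0.le
  have hs3 : √ε ≤ 1 / 284 := by
    rw [Real.sqrt_le_left (by norm_num)]
    linarith
  set y : ℝ := 1 / (142 * √ε) with hy
  have hy2 : 2 ≤ y := by
    rw [hy, le_div_iff₀ (by positivity)]
    linarith
  have hf : 2 ≤ ⌊y⌋₊ := Nat.le_floor (by exact_mod_cast hy2)
  obtain ⟨L, hL⟩ : ∃ L, ⌊y⌋₊ = L + 1 := ⟨⌊y⌋₊ - 1, by omega⟩
  have hL1 : 1 ≤ L := by omega
  have hle : (L : ℝ) + 1 ≤ y := by
    have := Nat.floor_le (show 0 ≤ y by linarith)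
    rw [hL] at this
    exact_mod_cast this
  have hlt : y < L + 2 := by
    have := Nat.lt_floor_add_one y
    rw [hL] at this
    push_cast at this
    linarith
  have hL1' : (1 : ℝ) ≤ L := by exact_mod_cast hL1
  obtain ⟨A, a1, a2⟩ := exists_matrix_real hL1 (Nat.succ_pos n₀) rfl
  refine ⟨_, ?_, A, le_trans ?_ a1, a2.trans ?_⟩
  · calc n₀ ≤ n₀.succ := Nat.le_succ _
      _ ≤ 50 * (L + 1) * n₀.succ := Nat.le_mul_of_pos_left _ (by positivity)
      _ ≤ _ := Nat.le_mul_of_pos_right _ (by positivity)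
  · rw [le_div_iff₀ (by positivity)]
    have h3 : ((L : ℝ) + 1) * (142 * √ε) ≤ 1 := by
      rw [hy, le_div_iff₀ (by positivity)] at hle
      exact hle
    have h4 : (((L : ℝ) + 1) * (142 * √ε)) ^ 2 ≤ 1 := by
      have : 0 ≤ ((L : ℝ) + 1) * (142 * √ε) := by positivity
      nlinarith
    have h5 : (((L : ℝ) + 1) * (142 * √ε)) ^ 2 = 20164 * (ε * ((L : ℝ) + 1) ^ 2) := by
      rw [mul_pow, mul_pow, hs2]; ring
    have h6 : 0 ≤ ε * ((L : ℝ) + 1) ^ 2 := by positivity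
    nlinarith
  · rw [div_eq_inv_mul]
    refine mul_le_mul_of_nonneg_right ?_ (by positivity)
    have : ((8 : ℝ) ^ L)⁻¹ = (2 : ℝ) ^ (-(3 * (L : ℝ))) := by
      rw [Real.rpow_neg (by norm_num), show (3 * (L : ℝ)) = ((3 * L : ℕ) : ℝ) by push_cast; ring,
        Real.rpow_natCast, pow_mul]
      norm_num
    rw [this]
    exact Real.rpow_le_rpow_of_exponent_le (by norm_num) (by linarith)

theorem not_polynomial (c C : ℝ) (hc : 0 < c) :
    ∃ n : ℕ, 1 ≤ n ∧ ∃ ε : ℝ, 0 < ε ∧ ε < 1 ∧ ∃ A : Matrix (Fin n) (Fin n) (Fin 2),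
      ε ≤ distFree pattern A ∧ (numCopies pattern A : ℝ) < c * ε ^ C * (n : ℝ) ^ 8 := by
  obtain ⟨N, hN⟩ := exists_nat_ge C
  have ht := (tendsto_pow_const_div_const_pow_of_one_lt (2 * N) (show (1 : ℝ) < 8 by norm_num))
  have hpos : 0 < c / (8 * 20000 ^ N) := by positivity
  obtain ⟨M, hM⟩ := Filter.eventually_atTop.1 (ht.eventually (gt_mem_nhds hpos))
  have h1 := hM (M + 1 + 1) (by omega)
  set L := M + 1 with hL
  obtain ⟨A, a1, a2⟩ := exists_matrix_real (L := L) (t := 1) (by omega) one_pos rfl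
  have hL0 : (0 : ℝ) ≤ L := Nat.cast_nonneg _
  have he1 : 1 / (20000 * ((L : ℝ) + 1) ^ 2) < 1 := by
    rw [div_lt_one (by positivity)]
    nlinarith
  have hn : 1 ≤ 50 * (L + 1) * 1 * 2 ^ L := Nat.succ_le_of_lt (by positivity)
  refine ⟨_, hn, _, by positivity, he1, A, a1, a2.trans_lt ?_⟩
  rw [div_eq_inv_mul]
  refine mul_lt_mul_of_pos_right ?_ (by positivity)
  have h2 : (1 / (20000 * ((L : ℝ) + 1) ^ 2)) ^ (N : ℝ) ≤ (1 / (20000 * ((L : ℝ) + 1) ^ 2)) ^ C :=
    Real.rpow_le_rpow_of_exponent_ge (by positivity) he1.le hN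
  refine lt_of_lt_of_le ?_ (mul_le_mul_of_nonneg_left h2 hc.le)
  rw [Real.rpow_natCast, one_div, inv_pow, ← div_eq_mul_inv, lt_div_iff₀ (by positivity), mul_pow,
    ← pow_mul]
  push_cast at h1
  rw [div_lt_div_iff₀ (by positivity) (by positivity), pow_succ] at h1
  rw [inv_mul_lt_iff₀ (by positivity)]
  nlinarith

end Vale.Agent.P037
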